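import Vale.Agent.P207.N4.Dim
import Vale.Agent.P207.N4.H76.Geo
import Vale.Agent.P207.N4.H459.Slice

/-!
# P207, N3: the geodesics coming from a boundary point (`C⁰` fields of `Slice`)
-/

open Set Filter Topology Metric Real
open Vale.Agent.P207.N4.H728 Vale.Agent.P207.N3.H728 Vale.Agent.P207.N4.H709 Vale.Agent.P207.N3.H709

noncomputable section

namespace Vale.Agent.P207.N4.H728.Had

open Vale.Agent.P207.N3 Vale.Agent.P207.N3.H728 Vale.Agent.P207.N3.H728.Had

variable [Dim]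

variable {Y : Type*} [MetricSpace Y] [ProperSpace Y] (H : Had Y) {o : Y}

/-- the line through `q` which comes from `ξ` -/
def cv (ξ : Bd o) (q : Y) : Ln Y := (H.ray q ξ.ln).flip

@[simp] theorem cv_zero (ξ : Bd o) (q : Y) : H.cv ξ q 0 = q := by
  rw [cv, Ln.flip_apply, neg_zero, H.ray_zero]

@[simp] theorem em_cv (ξ : Bd o) (q : Y) : H.em o (H.cv ξ q) = ξ := by
  rw [cv, H.em_flip, H.ep_ray, H.ep_self]

theorem eq_cv {ξ : Bd o} {q : Y} {c : Ln Y} (h1 : H.em o c = ξ) (h2 : c 0 = q) :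
    c = H.cv ξ q := by
  have h3 : c.flip = H.ray q ξ.ln := by
    refine H.eq_ray (by rw [Ln.flip_apply, neg_zero, h2]) ?_
    rw [← h1]
    exact (H.asy_em o c).symm
  rw [cv, ← h3, Ln.flip_flip]

theorem cv_self (c : Ln Y) : H.cv (H.em o c) (c 0) = c := (H.eq_cv rfl rfl).symm

theorem cv_at (c : Ln Y) (t : ℝ) : H.cv (H.em o c) (c t) = c.φ t :=
  (H.eq_cv (H.em_φ o t c) (by rw [Ln.φ_apply, zero_add])).symm

theorem cv_cv (ξ : Bd o) (q : Y) (t : ℝ) : H.cv ξ (H.cv ξ q t) = (H.cv ξ q).φ t := by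
  have h := H.cv_at (o := o) (H.cv ξ q) t
  rwa [em_cv] at h

theorem continuous_cv : Continuous fun p : Bd o × Y => H.cv p.1 p.2 :=
  Ln.continuous_flip.comp (H.continuous_ray.comp
    (continuous_snd.prodMk (Bd.continuous_ln.comp continuous_fst)))

/-- the motion along the lines which come from `ξ` -/
def psi (ξ : Bd o) (s : ℝ) (q : Y) : Y := H.cv ξ q s

theorem psi_zero (ξ : Bd o) (q : Y) : H.psi ξ 0 q = q := H.cv_zero ξ q

theorem psi_add (ξ : Bd o) (s t : ℝ) (q : Y) : H.psi ξ (s + t) q = H.psi ξ s (H.psi ξ t q) := by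
  simp only [psi, cv_cv, Ln.φ_apply]

theorem dist_psi (ξ : Bd o) (s : ℝ) (q : Y) : dist q (H.psi ξ s q) = |s| := by
  have h := (H.cv ξ q).dist_eq 0 s
  rwa [cv_zero, zero_sub, abs_neg] at h

theorem psi_ne (ξ : Bd o) (s : ℝ) (q : Y) (h : H.psi ξ s q = q) : s = 0 := by
  have h1 := H.dist_psi ξ s q
  rwa [h, dist_self, eq_comm, abs_eq_zero] at h1

theorem psi_em (c : Ln Y) (s t : ℝ) : H.psi (H.em o c) s (c t) = c (s + t) := by
  rw [psi, cv_at, Ln.φ_apply]

theorem continuous_psi : Continuous fun p : (Bd o × Y) × ℝ => H.psi p.1.1 p.2 p.1.2 :=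
  Ln.continuous_eval₂.comp ((H.continuous_cv.comp continuous_fst).prodMk continuous_snd)

/-- the end point of the line through `q` which comes from `ξ` -/
def line' (ξ : Bd o) (q : Y) : Bd o := H.ep o (H.cv ξ q)

theorem line'_em (c : Ln Y) : H.line' (H.em o c) (c 0) = H.ep o c := by
  rw [line', cv_self]

theorem line'_em_at (c : Ln Y) (t : ℝ) : H.line' (H.em o c) (c t) = H.ep o c := by
  rw [line', cv_at, H.ep_φ]

theorem line'_ne (ξ : Bd o) (q : Y) : H.line' ξ q ≠ ξ := fun h =>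
  H.em_ne_ep o (H.cv ξ q) (by rw [em_cv]; exact h.symm)

theorem line'_iff (ξ : Bd o) (q q' : Y) : H.line' ξ q = H.line' ξ q' ↔ ∃ s, q' = H.psi ξ s q := by
  constructor
  · intro h
    have h1 := H.exists_φ o (c := H.cv ξ q) (c' := H.cv ξ q') (by rw [em_cv, em_cv]) h
    have h2 := congrArg (fun c : Ln Y => c 0) h1
    simp only [cv_zero, Ln.φ_apply, zero_add] at h2
    exact ⟨_, h2⟩
  · rintro ⟨s, rfl⟩
    simp only [line', psi, cv_cv, H.ep_φ]

theorem continuous_line' : Continuous fun p : Bd o × Y => H.line' p.1 p.2 :=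
  (H.continuous_ep o).comp H.continuous_cv

/-- the level function of `ξ` grows with speed one along the lines which come from `ξ` -/
theorem bus_psi (ξ : Bd o) (s : ℝ) (q : Y) : bus ξ.ln (H.psi ξ s q) = bus ξ.ln q + s := by
  have h := H.bus_em o (H.cv ξ q) s
  rw [em_cv] at h
  rw [psi, h, lvl, em_cv, cv_zero]

theorem lvl_cv (ξ : Bd o) (q : Y) : H.lvl o (H.cv ξ q) = bus ξ.ln q := by
  rw [lvl, em_cv, cv_zero]

end Vale.Agent.P207.N4.H728.Had

namespace Vale.Agent.P207.N4.H76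

open Vale.Agent.P207.N3 Vale.Agent.P207.N3.H76

variable [Dim]

namespace Geo

variable {Γ X Y : Type} [Group Γ] [MetricSpace X] [ProperSpace X] [MetricSpace Y]
  [ProperSpace Y] [MulAction Γ X] [MulAction Γ Y] [IsIsometricSMul Γ X] [IsIsometricSMul Γ Y]
  (G : Geo Γ X Y) (o : Y)

/-- the end point in the past -/
def em (x : X) : Bd o := G.had.em o (G.p x)

/-- the end point in the future -/
def ep (x : X) : Bd o := G.had.ep o (G.p x)

/-- the level -/
def lv (x : X) : ℝ := G.had.lvl o (G.p x)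

theorem em_cont : Continuous (G.em o) := (G.had.continuous_em o).comp G.p_cont

theorem ep_cont : Continuous (G.ep o) := (G.had.continuous_ep o).comp G.p_cont

theorem lv_cont : Continuous (G.lv o) := (G.had.continuous_lvl o).comp G.p_cont

theorem em_φ (t : ℝ) (x : X) : G.em o (G.φ t x) = G.em o x := by rw [em, G.p_φ, G.had.em_φ]; rfl

theorem ep_φ (t : ℝ) (x : X) : G.ep o (G.φ t x) = G.ep o x := by rw [ep, G.p_φ, G.had.ep_φ]; rfl

theorem lv_φ (t : ℝ) (x : X) : G.lv o (G.φ t x) = G.lv o x + t := by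
  rw [lv, G.p_φ, G.had.lvl_φ]; rfl

theorem em_rot (a : O2) (x : X) : G.em o (G.rot a x) = G.em o x := by rw [em, G.p_rot]; rfl

theorem ep_rot (a : O2) (x : X) : G.ep o (G.rot a x) = G.ep o x := by rw [ep, G.p_rot]; rfl

theorem lv_rot (a : O2) (x : X) : G.lv o (G.rot a x) = G.lv o x := by rw [lv, G.p_rot]; rfl

theorem ep_flip (x : X) : G.ep o x = G.em o (G.flip x) := by
  rw [em, G.p_flip, G.had.em_flip]; rfl

theorem em_ne_ep (x : X) : G.em o x ≠ G.ep o x := G.had.em_ne_ep o _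

theorem exists_frame (ξ η : Bd o) (h : ξ ≠ η) (t : ℝ) :
    ∃ x, G.em o x = ξ ∧ G.ep o x = η ∧ G.lv o x = t := by
  obtain ⟨c, h1, h2, h3⟩ := G.had.exists_hopf h t
  obtain ⟨x, rfl⟩ := G.p_surj c
  exact ⟨x, h1, h2, h3⟩

theorem frame_unique (x y : X) (h1 : G.em o x = G.em o y) (h2 : G.ep o x = G.ep o y)
    (h3 : G.lv o x = G.lv o y) : ∃ a, y = G.rot a x :=
  G.p_eq_iff.1 (G.had.eq_of_hopf o h1 h2 h3)

theorem hopf_proper (K : Set (Bd o × Bd o)) (hK : IsCompact K) (hd : ∀ p ∈ K, p.1 ≠ p.2) (c : ℝ) :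
    IsCompact {x | (G.em o x, G.ep o x) ∈ K ∧ |G.lv o x| ≤ c} :=
  G.p_proper (G.had.isCompact_hopf hK hd c)

/-- a frame over `(ξ, q)` -/
theorem frame (ξ : Bd o) (q : Y) : ∃ x, G.em o x = ξ ∧ G.ft x = q := by
  obtain ⟨x, hx⟩ := G.p_surj (G.had.cv ξ q)
  refine ⟨x, ?_, ?_⟩
  · rw [em, hx, G.had.em_cv]
  · rw [← G.p_zero, hx, G.had.cv_zero]

theorem psi_em (x : X) (s t : ℝ) : G.had.psi (G.em o x) s (G.p x t) = G.p x (s + t) :=
  G.had.psi_em _ _ _

theorem line_em (x : X) : G.had.line' (G.em o x) (G.ft x) = G.ep o x := by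
  rw [← G.p_zero]; exact G.had.line'_em _

theorem lv_eq (x : X) : G.lv o x = bus (G.em o x).ln (G.ft x) := by
  rw [← G.p_zero]; rfl

/-- frames over nearby points are nearby -/
theorem bdd_ft (c : ℝ) : ∃ C, ∀ x y : X, dist (G.ft x) (G.ft y) ≤ c → dist x y ≤ C := by
  obtain ⟨K, hK, hKc⟩ := G.cocompact
  have h1 : IsCompact (cthickening c (G.ft '' K)) := (hK.image G.ft_cont).cthickening
  have h2 : IsCompact (G.ft ⁻¹' (cthickening c (G.ft '' K))) := G.ft_proper _ h1
  obtain ⟨C, hC⟩ := (hK.isBounded.union h2.isBounded).subset_closedBall G.nonempty.some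
  refine ⟨C + C, fun x y hxy => ?_⟩
  obtain ⟨g, hg⟩ := hKc x
  have h3 : g • y ∈ G.ft ⁻¹' (cthickening c (G.ft '' K)) := by
    refine mem_cthickening_of_dist_le _ (G.ft (g • x)) c _ ⟨_, hg, rfl⟩ ?_
    rw [G.ft_smul, G.ft_smul, dist_smul, dist_comm]
    exact hxy
  have h4 := hC (Or.inl hg)
  have h5 := hC (Or.inr h3)
  rw [← dist_smul g x y]
  exact (dist_triangle_right _ _ _).trans (add_le_add h4 h5)

/-- **the base of a `Slice` from the geometry** -/
def base {V : Type} [NormedAddCommGroup V] [NormedSpace ℝ V] (j : Y ≃ₜ V) :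
    H459.Base X (Bd o) V where
  em := G.em o
  ep := G.ep o
  ft x := j (G.ft x)
  em_cont := G.em_cont o
  ep_cont := G.ep_cont o
  ft_cont := j.continuous.comp G.ft_cont
  frame ξ q := by
    obtain ⟨x, h1, h2⟩ := G.frame o ξ (j.symm q)
    exact ⟨x, h1, by rw [h2, j.apply_symm_apply]⟩
  ft_proper K hK := by
    have h1 : (fun x => j (G.ft x)) ⁻¹' K = G.ft ⁻¹' (j.symm '' K) := by
      rw [j.symm.image_eq_preimage_symm]; rfl
    rw [h1]
    exact G.ft_proper _ (hK.image j.symm.continuous)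
  psi ξ s q := j (G.had.psi ξ s (j.symm q))
  psi_zero ξ q := by rw [G.had.psi_zero, j.apply_symm_apply]
  psi_add ξ s t q := by rw [j.symm_apply_apply, G.had.psi_add]
  line ξ q := G.had.line' ξ (j.symm q)
  line_ft x := by rw [j.symm_apply_apply, G.line_em]
  line_iff ξ q q' := by
    rw [G.had.line'_iff]
    refine exists_congr fun s => ?_
    rw [Homeomorph.symm_apply_eq]
  psi_ne ξ s q h := by
    refine G.had.psi_ne ξ s (j.symm q) ?_
    rw [← j.symm_apply_apply (G.had.psi ξ s (j.symm q)), h]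

end Geo

end Vale.Agent.P207.N4.H76
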