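import Vale.Agent.P207.N4.Dim
import Vale.Agent.P207.N4.H76.Asm1

/-!
# P207, N3: the smooth input of the charts from a direction field

`Dir G o j`: frames `lf x u` with foot point `E x (0, u)` and unit vectors `W x u` (in the frame
`lf x u`) such that the geodesic of `W x u` stays close to the one of `x` in the past.
-/

open Set Filter Topology Metric Real
open scoped ContDiff
open Vale.Agent.P207.N4.H728 Vale.Agent.P207.N3.H728 Vale.Agent.P207.N4.H709 Vale.Agent.P207.N3.H709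

set_option linter.unusedSectionVars false

noncomputable section

namespace Vale.Agent.P207.N4.H76

open Vale.Agent.P207.N3 Vale.Agent.P207.N3.H76

variable [Dim]

/-- two lines one of which stays close to the other one (as sets) are asymptotic -/
theorem asy_of_near {Y : Type*} [MetricSpace Y] {c c' : Ln Y} {C : ℝ}
    (h : ∀ s, 0 ≤ s → ∃ t, 0 ≤ t ∧ dist (c t) (c' s) ≤ C) : Asy c c' := by
  refine ⟨C + (C + dist (c 0) (c' 0)), fun s hs => ?_⟩
  obtain ⟨t, ht, h1⟩ := h s hs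
  have h2 : dist (c 0) (c t) = t := by
    rw [Ln.dist_eq, zero_sub, abs_neg, abs_of_nonneg ht]
  have h3 : dist (c' 0) (c' s) = s := by
    rw [Ln.dist_eq, zero_sub, abs_neg, abs_of_nonneg hs]
  have h4 : |t - s| ≤ C + dist (c 0) (c' 0) := by
    rw [abs_le]
    have h5 := dist_triangle4 (c 0) (c' 0) (c' s) (c t)
    have h6 := dist_triangle4 (c' 0) (c 0) (c t) (c' s)
    rw [dist_comm (c' s)] at h5
    rw [dist_comm (c' 0) (c 0)] at h6
    constructor <;> linarith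
  have h7 : dist (c s) (c t) = |t - s| := by rw [Ln.dist_eq, abs_sub_comm]
  have h8 := dist_triangle (c s) (c t) (c' s)
  linarith

namespace Geo

variable {Γ X Y : Type} [Group Γ] [MetricSpace X] [ProperSpace X] [MetricSpace Y]
  [ProperSpace Y] [MulAction Γ X] [MulAction Γ Y] [IsIsometricSMul Γ X] [IsIsometricSMul Γ Y]
  (G : Geo Γ X Y) (o : Y)

/-- the line of a unit vector -/
theorem exists_line {W : E3} (hW : ‖W‖ = 1) (y : X) :
    ∃ c : Ln Y, ∀ s, c s = G.E y (s • W) := by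
  obtain ⟨R, hR⟩ := exists_rot_e0 hW
  refine ⟨G.p (G.act R y), fun s => ?_⟩
  rw [p_apply, G.E_act, map_smul, hR]

variable {V : Type} [NormedAddCommGroup V] [NormedSpace ℝ V] (j : Y ≃ₜ V)

/-- **the geodesic through `E x (0, u)` which comes from `em x` is the one which stays close to
the line of `x` in the past** -/
theorem A_eq {x y : X} {u : E2} {W : E3} (hW : ‖W‖ = 1) (hy : G.ft y = G.E x (pk 0 u)) {C : ℝ}
    (h : ∀ s : ℝ, s ≤ 0 → ∃ t : ℝ, t ≤ 0 ∧ dist (G.E y (t • W)) (G.E x (s • e0)) ≤ C) (s : ℝ) :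
    G.A o j x (s, u) = j (G.E y (s • W)) := by
  obtain ⟨c, hc⟩ := G.exists_line hW y
  have h1 : Asy c.flip (G.p x).flip := by
    refine asy_of_near (C := C) fun s hs => ?_
    obtain ⟨t, ht, h2⟩ := h (-s) (by linarith)
    refine ⟨-t, by linarith, ?_⟩
    rw [Ln.flip_apply, Ln.flip_apply, neg_neg, hc, p_apply]
    exact h2
  have h2 : G.had.em o c = G.em o x := (G.had.em_eq_iff o).2 h1
  have h3 : c 0 = G.E x (pk 0 u) := by rw [hc, zero_smul, G.E_zero, hy]
  have h4 := G.had.eq_cv h2 h3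
  change j (G.had.cv (G.em o x) (G.E x (pk 0 u)) s) = _
  rw [← h4, hc]

/-- **the smooth input, from a direction field** -/
structure Dir where
  ε : ℝ
  ε_pos : 0 < ε
  /-- the transported frames -/
  lf : X → E2 → X
  ft_lf : ∀ x, ∀ u ∈ ball (0 : E2) ε, G.ft (lf x u) = G.E x (pk 0 u)
  lf_jc : JC (fun x (p : E2 × E3) => j (G.E (lf x p.1) p.2)) (univ ×ˢ (ball 0 ε ×ˢ univ))
  /-- the direction -/
  W : X → E2 → E3
  W_norm : ∀ x, ∀ u ∈ ball (0 : E2) ε, ‖W x u‖ = 1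
  W_jc : JC W (univ ×ˢ ball 0 ε)
  /-- the geodesic of `W x u` stays close to the one of `x` in the past -/
  W_near : ∀ x, ∀ u ∈ ball (0 : E2) ε, ∃ C, ∀ s : ℝ, s ≤ 0 → ∃ t : ℝ, t ≤ 0 ∧
    dist (G.E (lf x u) (t • W x u)) (G.E x (s • e0)) ≤ C
  /-- the exponential map is a local diffeomorphism at `0` -/
  E_der : ∀ x, Function.Bijective (fderiv ℝ (fun u => j (G.E x u)) 0)
  E_diff : ∀ x, DifferentiableAt ℝ (fun u => j (G.E x u)) 0
  diff_smul : ∀ g : Γ, Differentiable ℝ fun p => j (g • j.symm p)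

variable {G} {j}

theorem Dir.A_eq (D : G.Dir j) (x : X) (s : ℝ) {u : E2} (hu : u ∈ ball (0 : E2) D.ε) :
    G.A o j x (s, u) = j (G.E (D.lf x u) (s • D.W x u)) := by
  obtain ⟨C, hC⟩ := D.W_near x u hu
  exact G.A_eq o j (D.W_norm x u hu) (D.ft_lf x u hu) hC s

theorem Dir.A_jc (D : G.Dir j) : JC (G.A o j) (univ ×ˢ (univ ×ˢ ball 0 D.ε)) := by
  have hS : IsOpen (univ ×ˢ (univ ×ˢ ball 0 D.ε) : Set (X × (ℝ × E2))) :=
    isOpen_univ.prod (isOpen_univ.prod isOpen_ball)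
  have hs : JC (fun (_ : X) (z : ℝ × E2) => z.1) (univ ×ˢ (univ ×ˢ ball 0 D.ε)) := (JC.id hS).fst
  have hu : JC (fun (_ : X) (z : ℝ × E2) => z.2) (univ ×ˢ (univ ×ˢ ball 0 D.ε)) := (JC.id hS).snd
  have hW : JC (fun x (z : ℝ × E2) => D.W x z.2) (univ ×ˢ (univ ×ˢ ball 0 D.ε)) :=
    D.W_jc.comp' hu fun p hp => ⟨mem_univ _, hp.2.2⟩
  have h2 : JC (fun x (z : ℝ × E2) => (z.2, z.1 • D.W x z.2)) (univ ×ˢ (univ ×ˢ ball 0 D.ε)) :=
    hu.prodMk (hs.smul hW)
  have h3 := D.lf_jc.comp' h2 fun p hp => ⟨mem_univ _, hp.2.2, mem_univ _⟩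
  refine h3.congr fun p hp => ?_
  obtain ⟨x, s, u⟩ := p
  exact D.A_eq o x s hp.2.2

/-- `(s, u) ↦ (s, u₀, u₁)` -/
def pkC : (ℝ × E2) →L[ℝ] E3 := LinearMap.toContinuousLinearMap pkL

theorem pkC_apply (z : ℝ × E2) : pkC z = pk z.1 z.2 := rfl

theorem pkC_bij : Function.Bijective pkC :=
  ⟨fun a b h => by
    obtain ⟨h1, h2⟩ := pk_inj.1 h
    exact Prod.ext h1 h2, fun v => ⟨(v 0, tl v), pk_tl v⟩⟩

theorem A_time (G : Geo Γ X Y) (x : X) (t : ℝ) : G.A o j x (t, 0) = j (G.E x (pk t 0)) := by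
  have h := G.psi_em o x t 0
  rw [add_zero, p_zero] at h
  simp only [A, pk_zero_zero, G.E_zero]
  rw [h, p_apply, pk_zero_right]

theorem Dir.fderiv_A (D : G.Dir j) (x : X) :
    fderiv ℝ (G.A o j x) 0 = (fderiv ℝ (fun u => j (G.E x u)) 0).comp pkC := by
  have h0 : (0 : E2) ∈ ball (0 : E2) D.ε := mem_ball_self D.ε_pos
  have hm : ((x, (0 : ℝ × E2)) : X × (ℝ × E2)) ∈
      (univ ×ˢ (univ ×ˢ ball 0 D.ε) : Set (X × (ℝ × E2))) := ⟨mem_univ _, mem_univ _, h0⟩
  have hd : HasFDerivAt (G.A o j x) (fderiv ℝ (G.A o j x) 0) 0 :=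
    ((D.A_jc o).differentiableAt hm).hasFDerivAt
  have hE : HasFDerivAt (fun u => j (G.E x u)) (fderiv ℝ (fun u => j (G.E x u)) 0) 0 :=
    (D.E_diff x).hasFDerivAt
  set D1 := fderiv ℝ (G.A o j x) 0
  set F' := fderiv ℝ (fun u => j (G.E x u)) 0
  -- along the axis
  have e1 : D1.comp (ContinuousLinearMap.inl ℝ ℝ E2)
      = (F'.comp pkC).comp (ContinuousLinearMap.inl ℝ ℝ E2) := by
    have a1 : HasFDerivAt (fun t : ℝ => G.A o j x (t, 0))
        (D1.comp (ContinuousLinearMap.inl ℝ ℝ E2)) 0 := by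
      have a2 : HasFDerivAt (fun t : ℝ => ((t, 0) : ℝ × E2)) (ContinuousLinearMap.inl ℝ ℝ E2) 0 :=
        (ContinuousLinearMap.inl ℝ ℝ E2).hasFDerivAt
      exact HasFDerivAt.comp (g := G.A o j x) (0 : ℝ) hd a2
    have a3 : HasFDerivAt (fun t : ℝ => j (G.E x (pk t 0)))
        ((F'.comp pkC).comp (ContinuousLinearMap.inl ℝ ℝ E2)) 0 := by
      have a4 : HasFDerivAt (fun t : ℝ => pk t 0)
          (pkC.comp (ContinuousLinearMap.inl ℝ ℝ E2)) 0 :=
        (pkC.comp (ContinuousLinearMap.inl ℝ ℝ E2)).hasFDerivAt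
      have a5 : HasFDerivAt (fun u => j (G.E x u)) F' (pk (0 : ℝ) 0) := by
        rw [pk_zero_zero]; exact hE
      exact HasFDerivAt.comp (g := fun u => j (G.E x u)) (0 : ℝ) a5 a4
    refine a1.unique (a3.congr_of_eventuallyEq (Eventually.of_forall fun t => ?_))
    exact A_time o G x t
  have e2 : D1.comp (ContinuousLinearMap.inr ℝ ℝ E2)
      = (F'.comp pkC).comp (ContinuousLinearMap.inr ℝ ℝ E2) := by
    have a1 : HasFDerivAt (fun u : E2 => G.A o j x (0, u))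
        (D1.comp (ContinuousLinearMap.inr ℝ ℝ E2)) 0 := by
      have a2 : HasFDerivAt (fun u : E2 => ((0, u) : ℝ × E2)) (ContinuousLinearMap.inr ℝ ℝ E2) 0 :=
        (ContinuousLinearMap.inr ℝ ℝ E2).hasFDerivAt
      exact HasFDerivAt.comp (g := G.A o j x) (0 : E2) hd a2
    have a3 : HasFDerivAt (fun u : E2 => j (G.E x (pk 0 u)))
        ((F'.comp pkC).comp (ContinuousLinearMap.inr ℝ ℝ E2)) 0 := by
      have a4 : HasFDerivAt (fun u : E2 => pk 0 u)
          (pkC.comp (ContinuousLinearMap.inr ℝ ℝ E2)) 0 :=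
        (pkC.comp (ContinuousLinearMap.inr ℝ ℝ E2)).hasFDerivAt
      have a5 : HasFDerivAt (fun u => j (G.E x u)) F' (pk 0 (0 : E2)) := by
        rw [pk_zero_zero]; exact hE
      exact HasFDerivAt.comp (g := fun u => j (G.E x u)) (0 : E2) a5 a4
    refine a1.unique (a3.congr_of_eventuallyEq (Eventually.of_forall fun u => ?_))
    exact G.A_disc o j x u
  ext1
  · exact e1
  · exact e2

theorem Dir.A_der (D : G.Dir j) (x : X) : Function.Bijective (fderiv ℝ (G.A o j x) 0) := by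
  rw [D.fderiv_A o x, ContinuousLinearMap.coe_comp]
  exact (D.E_der x).comp pkC_bij

/-- the smooth input -/
def Dir.sm3 (D : G.Dir j) : G.Sm3 o j where
  ε := D.ε
  ε_pos := D.ε_pos
  A_jc := D.A_jc o
  A_der := D.A_der o
  diff_smul := D.diff_smul

end Geo

end Vale.Agent.P207.N4.H76
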