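import Vale.Agent.P207.N4.Dim
import Vale.Agent.P207.N4.H76.Dir
import Vale.Agent.P207.N4.H460.GeoHol
import Vale.Agent.P207.N4.H460.DenseLeaf
import Vale.Agent.P207.N4.H803.Hold2
import Vale.Agent.P207.N4.H459.Inv

/-!
# P207, N3: the leaf structure from the geometry

`In3 G j` collects the whole geometric input (no base point). `In3.leaf o : Leaf Γ X (Bd o)`.
-/

open Set Filter Topology Metric Real
open scoped ContDiff
open Vale.Agent.P207.N4.H728 Vale.Agent.P207.N3.H728 Vale.Agent.P207.N4.H709 Vale.Agent.P207.N3.H709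

set_option linter.unusedSectionVars false

noncomputable section

namespace Vale.Agent.P207.N4.H76

open Vale.Agent.P207.N3 Vale.Agent.P207.N3.H76

variable [Dim]

namespace Geo

variable {Γ X Y : Type} [Group Γ] [MetricSpace X] [ProperSpace X] [MetricSpace Y]
  [ProperSpace Y] [MulAction Γ X] [MulAction Γ Y] [IsIsometricSMul Γ X] [IsIsometricSMul Γ Y]
  (G : Geo Γ X Y) {V : Type} [NormedAddCommGroup V] [NormedSpace ℝ V] (j : Y ≃ₜ V)

/-- **the whole geometric input of the leaf structure** -/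
structure In3 where
  D : G.Dir j
  F : H460.MF G
  /-- the slope equation -/
  K : Type
  topK : TopologicalSpace K
  cpt : CompactSpace K
  pr : X → K
  φK : ℝ → K → K
  φK_cont : Continuous fun p : ℝ × K => φK p.1 p.2
  pr_φ : ∀ t x, pr (G.φ t x) = φK t (pr x)
  g : K → E2 → E2
  ρ : ℝ
  ρ_pos : 0 < ρ
  κ : ℝ
  κ_pos : 0 < κ
  δ : ℝ
  δ_pos : 0 < δ
  g_jc : JC g (univ ×ˢ ball 0 ρ)
  g_zero : ∀ x, g x 0 = 0
  g_low : ∀ x a, κ * ‖a‖ ^ 2 ≤ inner ℝ (fderiv ℝ (g x) 0 a) a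
  /-- the solutions of the slope equation are reparametrised geodesics -/
  ode : ∀ x, ∀ t ≥ (0 : ℝ), ∀ u : ℝ → E2,
    (∀ s ∈ Icc 0 t, HasDerivWithinAt u (g (pr (G.φ s x)) (u s)) (Icc 0 t) s) →
    (∀ s ∈ Icc 0 t, ‖u s‖ ≤ δ) →
    ∃ τ : ℝ, G.E (D.lf x (u 0)) (τ • D.W x (u 0)) = G.E (G.φ t x) (pk 0 (u t))
  /-- Hölder dependence on the frame -/
  θ : ℝ
  θ_pos : 0 < θ
  hold : ∀ Q : Set X, IsCompact Q → ∀ S₀ : ℝ, ∃ C α : ℝ, 0 < α ∧ ∀ y ∈ Q, ∀ y' ∈ Q,
    ∀ s ∈ Icc (-S₀) S₀, ∀ v ∈ closedBall (0 : E2) θ,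
      ‖j (G.E (D.lf y v) (s • D.W y v)) - j (G.E (D.lf y' v) (s • D.W y' v))‖ ≤
        C * dist y y' ^ α

variable {G} {j} [FiniteDimensional ℝ V]

/-- the small radii do not depend on the base point -/
theorem Dir.small_indep (D : G.Dir j) {o o' : Y} {r₀ : ℝ} (h : (G.pre (D.sm3 o)).Small r₀) :
    (G.pre (D.sm3 o')).Small r₀ := by
  have hε : 8 * r₀ ≤ D.ε := h.lt.le
  have key : ∀ x, ∀ z : ℝ × E2, z ∈ ball (0 : ℝ × E2) (8 * r₀) →
      G.A o j x z = G.A o' j x z := by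
    rintro x ⟨s, u⟩ hz
    have hu : u ∈ ball (0 : E2) D.ε := by
      rw [mem_ball_zero_iff] at hz ⊢
      exact ((norm_snd_le (s, u)).trans_lt hz).trans_le hε
    rw [D.A_eq o x s hu, D.A_eq o' x s hu]
  refine ⟨h.pos, h.lt, fun x => ⟨(h.good x).1, ?_, ?_⟩⟩
  · intro z hz w hw hzw
    refine (h.good x).2.1 hz hw ?_
    change G.A o j x z = G.A o j x w
    rw [key x z hz, key x w hw]
    exact hzw
  · intro z hz
    have h1 := (h.good x).2.2 z hz
    have h2 : G.A o j x =ᶠ[𝓝 z] G.A o' j x := by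
      filter_upwards [isOpen_ball.mem_nhds hz] with w hw
      exact key x w hw
    change Function.Bijective (fderiv ℝ (G.A o j x) z) at h1
    change Function.Bijective (fderiv ℝ (G.A o' j x) z)
    rwa [h2.fderiv_eq] at h1

/-- the constants of the leaf structure -/
structure Cst (I : G.In3 j) (r₀ t₁ χ : ℝ) : Prop where
  small : ∀ o, (G.pre (I.D.sm3 o)).Small r₀
  θ : 3 * r₀ ≤ I.θ
  t₁_pos : 0 < t₁
  χ_pos : 0 < χ
  χ_le : χ ≤ G.had.a
  engulf : ∀ (o : Y) x, ∀ t ≥ t₁, G.e o r₀ (G.φ t x) '' closedBall 0 3 ⊆ G.e o r₀ x '' ball 0 1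
  first : ∀ (o : Y) x, ∀ t ≥ t₁, ∀ u ∈ ball (0 : E2) 3,
    ‖fderiv ℝ (tau (G.e o r₀) (G.φ t x) x) u‖ ≤ 1 * Real.exp (-χ * t)

theorem In3.exists_cst (I : G.In3 j) : ∃ r₀ t₁ χ, Cst I r₀ t₁ χ := by
  let := I.topK
  have := I.cpt
  obtain ⟨o⟩ : Nonempty Y := ⟨G.ft G.nonempty.some⟩
  set χ := min (I.κ / 2) G.had.a with hχd
  have hχ : 0 < χ := lt_min (half_pos I.κ_pos) G.had.a_pos
  have hχκ : χ < I.κ := (min_le_left _ _).trans_lt (half_lt_self I.κ_pos)
  set δ' := min I.δ (I.D.ε / 2) with hδd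
  have hδ' : 0 < δ' := lt_min I.δ_pos (half_pos I.D.ε_pos)
  have hδε : δ' < I.D.ε := (min_le_right _ _).trans_lt (half_lt_self I.D.ε_pos)
  obtain ⟨ε, hε, T, hT⟩ := H803.exists_maps (B := ∀ o : Y, Bd o) G.φ I.pr I.φK I.φK_cont I.pr_φ
    I.g I.ρ_pos hδ' I.g_jc I.g_zero I.g_low hχ.le hχκ
    (fun x u o => G.had.line' (G.em o x) (G.E x (pk 0 u))) (by
      intro x t ht u hu hub
      funext o
      obtain ⟨τ, hτ⟩ := I.ode x t ht u hu fun s hs => (hub s hs).trans (min_le_left _ _)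
      have h0 : u 0 ∈ ball (0 : E2) I.D.ε := by
        rw [mem_ball_zero_iff]
        exact (hub 0 ⟨le_rfl, ht⟩).trans_lt hδε
      have h1 := I.D.A_eq o x τ h0
      rw [hτ] at h1
      have h2 : G.had.psi (G.em o x) τ (G.E x (pk 0 (u 0))) = G.E (G.φ t x) (pk 0 (u t)) :=
        j.injective h1
      rw [G.em_φ]
      exact (G.had.line'_iff _ _ _).2 ⟨τ, h2.symm⟩)
  obtain ⟨r₁, hr₁⟩ := (G.pre (I.D.sm3 o)).exists_small H459.invThm
  set r₀ := min r₁ (min (ε / 3) (I.θ / 3)) with hr₀d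
  have hr₀ : 0 < r₀ := lt_min hr₁.pos (lt_min (by positivity) (by have := I.θ_pos; positivity))
  have hsm : ∀ o, (G.pre (I.D.sm3 o)).Small r₀ := fun o' =>
    (I.D.small_indep hr₁).mono hr₀ (min_le_left _ _)
  have h3ε : r₀ * 3 ≤ ε := by
    have : r₀ ≤ ε / 3 := (min_le_right _ _).trans (min_le_left _ _)
    linarith
  have h3θ : 3 * r₀ ≤ I.θ := by
    have : r₀ ≤ I.θ / 3 := (min_le_right _ _).trans (min_le_right _ _)
    linarith
  refine ⟨r₀, 2 / χ, χ, ⟨hsm, h3θ, by positivity, hχ, min_le_right _ _, fun o' => ?_,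
    fun o' => ?_⟩⟩
  · exact (H803.engulf_of_maps G.φ (fun x u => G.had.line' (G.em o' x) (G.E x (pk 0 u))) hχ hr₀
      h3ε T (fun x t ht u hu => ⟨congrFun (hT x t ht u hu).1 o', (hT x t ht u hu).2⟩)
      (G.e o' r₀) (fun x u _ => rfl) (G.e_inj (I.D.sm3 o') (hsm o')) le_rfl).1
  · exact (H803.engulf_of_maps G.φ (fun x u => G.had.line' (G.em o' x) (G.E x (pk 0 u))) hχ hr₀
      h3ε T (fun x t ht u hu => ⟨congrFun (hT x t ht u hu).1 o', (hT x t ht u hu).2⟩)
      (G.e o' r₀) (fun x u _ => rfl) (G.e_inj (I.D.sm3 o') (hsm o')) le_rfl).2.2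

section Leaf

variable (G) (o : Y)

/-- the boundary with the action of the group -/
abbrev actB : MulAction Γ (Bd o) := bdAction G.had o

theorem contB : @ContinuousConstSMul Γ (Bd o) inferInstance (G.actB o).toSMul :=
  bdAction_continuous G.had o

variable {G}
variable {I : G.In3 j} {r₀ t₁ χ : ℝ} (hc : Cst I r₀ t₁ χ)

/-- the rate free part -/
def Cst.lc : @H803.LC _ Γ X (Bd o) _ _ _ _ _ _ _ _ (G.actB o) (G.contB o) :=
  letI := G.actB o
  haveI := G.contB o
  { φ := G.φ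
    φ_add := G.φ_add
    φ_cont := G.φ_cont
    φ_smul := fun g t x => G.φ_smul t g x
    em := G.em o
    em_cont := G.em_cont o
    em_smul := G.em_smul o
    em_φ := G.em_φ o
    lv := G.lv o
    lv_cont := G.lv_cont o
    lv_smul := G.lv_smul o
    cocompact := G.cocompact
    e := G.e o r₀
    e_cont := G.e_cont (I.D.sm3 o) (hc.small o)
    e_inj := G.e_inj (I.D.sm3 o) (hc.small o)
    e_open := G.e_open (I.D.sm3 o) (hc.small o) H459.invThm
    e_smul := fun g x u _ => G.e_smul' r₀ g x u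
    near := G.near (I.D.sm3 o) (hc.small o)
    tau_smooth := G.tau_smooth (I.D.sm3 o) (hc.small o) H459.invThm
    tau_cont := G.tau_cont (I.D.sm3 o) (hc.small o) H459.invThm }

include hc in
theorem Cst.contract (k : ℕ) (hk : 1 ≤ k) : ∃ C, ∀ x, ∀ t ≥ t₁, ∀ u ∈ ball (0 : E2) 3,
    ‖iteratedFDeriv ℝ k (tau (G.e o r₀) (G.φ t x) x) u‖ ≤ C * Real.exp (-χ * t) := by
  let := G.actB o
  have := G.contB o
  have hloc : (hc.lc o).LocExt :=
    H803.locExt_of (G.slc (I.D.sm3 o) (hc.small o)) (hc.lc o) H459.invThm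
      (G.slc_e (I.D.sm3 o) (hc.small o)).symm rfl
  exact (hc.lc o).contract hc.χ_pos hc.t₁_pos hloc (hc.engulf o) ⟨1, hc.first o⟩ k hk

include hc in
theorem Cst.holder (k : ℕ) (c : ℝ) : ∃ C α : ℝ, 0 < α ∧ ∀ x y x' y',
    G.em o x = G.em o y → G.em o x' = G.em o y' →
    |G.lv o x - G.lv o y| ≤ c → |G.lv o x' - G.lv o y'| ≤ c → ∀ u ∈ closedBall (0 : E2) 2,
    G.e o r₀ x u ∈ G.e o r₀ y '' closedBall 0 2 → G.e o r₀ x' u ∈ G.e o r₀ y' '' closedBall 0 2 →
    ‖iteratedFDeriv ℝ k (tau (G.e o r₀) x y) u - iteratedFDeriv ℝ k (tau (G.e o r₀) x' y') u‖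
      ≤ C * (dist x x' + dist y y') ^ α := by
  let := G.actB o
  have := G.contB o
  refine H803.holder (hc.lc o) (G.slc (I.D.sm3 o) (hc.small o)) H459.invThm
    (G.slc_e (I.D.sm3 o) (hc.small o)).symm rfl ?_ k c
  intro Q hQ S₀
  obtain ⟨C, α, hα, h⟩ := I.hold Q hQ S₀
  refine ⟨C, α, hα, fun y hy y' hy' s hs v hv => ?_⟩
  have hv' : r₀ • v ∈ closedBall (0 : E2) I.θ := by
    rw [mem_closedBall_zero_iff] at hv ⊢
    rw [norm_smul, Real.norm_eq_abs, abs_of_pos (hc.small o).pos]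
    have := hc.θ
    nlinarith [(hc.small o).pos]
  have hv'' : r₀ • v ∈ ball (0 : E2) I.D.ε := by
    have h8 := (hc.small o).lt
    change 8 * r₀ < I.D.ε at h8
    rw [mem_closedBall_zero_iff] at hv
    rw [mem_ball_zero_iff, norm_smul, Real.norm_eq_abs, abs_of_pos (hc.small o).pos]
    nlinarith [(hc.small o).pos]
  rw [G.slc_A, G.slc_A, I.D.A_eq o y s hv'', I.D.A_eq o y' s hv'']
  exact h y hy y' hy' s hs _ hv'

/-- **`LeafA` at the base point `o`** -/
def Cst.leafA : @LeafA _ Γ X (Bd o) _ _ _ _ _ _ _ _ (G.actB o) (G.contB o) :=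
  letI := G.actB o
  haveI := G.contB o
  { nonempty := G.nonempty
    φ := G.φ
    φ_zero := G.φ_zero
    φ_add := G.φ_add
    φ_cont := G.φ_cont
    φ_smul := fun g t x => G.φ_smul t g x
    rot := G.rot
    rot_one := G.rot_one
    rot_mul := G.rot_mul
    rot_cont := G.rot_cont
    rot_smul := G.rot_smul
    rot_φ := G.rot_φ
    flip := G.flip
    flip_flip := G.flip_flip
    flip_cont := G.flip_cont
    flip_smul := G.flip_smul
    flip_φ := G.flip_φ
    flip_rot := G.flip_rot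
    em := G.em o
    em_cont := G.em_cont o
    em_smul := G.em_smul o
    em_φ := G.em_φ o
    em_rot := G.em_rot o
    ep := G.ep o
    ep_flip := G.ep_flip o
    em_ne_ep := G.em_ne_ep o
    lv := G.lv o
    lv_cont := G.lv_cont o
    lv_φ := G.lv_φ o
    lv_rot := G.lv_rot o
    lv_smul := G.lv_smul o
    exists_frame := G.exists_frame o
    frame_unique := G.frame_unique o
    hopf_proper := G.hopf_proper o
    cocompact := G.cocompact
    proper := G.proper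
    e := G.e o r₀
    e_cont := G.e_cont (I.D.sm3 o) (hc.small o)
    e_zero := G.e_zero (I.D.sm3 o) (hc.small o)
    e_inj := G.e_inj (I.D.sm3 o) (hc.small o)
    e_ne := fun x u _ => G.e_ne' r₀ x u
    e_open := G.e_open (I.D.sm3 o) (hc.small o) H459.invThm
    e_smul := fun g x u _ => G.e_smul' r₀ g x u
    e_rot := fun a x u _ => G.e_rot' r₀ a x u
    near := G.near (I.D.sm3 o) (hc.small o)
    tau_smooth := G.tau_smooth (I.D.sm3 o) (hc.small o) H459.invThm
    tau_cont := G.tau_cont (I.D.sm3 o) (hc.small o) H459.invThm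
    t1 := t₁
    t1_pos := hc.t₁_pos
    χ := χ
    χ_pos := hc.χ_pos
    engulf := hc.engulf o
    contract := hc.contract o
    holder := hc.holder o
    hol := I.F.hol
    hol_em := fun ξ x h => I.F.hol_em ξ x h
    hol_ep := fun ξ x h => I.F.hol_ep ξ x h
    hol_lp := fun ξ x h => I.F.hol_lp ξ x h
    hol_self := fun x => I.F.hol_self x
    hol_hol := fun ξ ξ' x h h' => I.F.hol_hol ξ ξ' x h h'
    hol_φ := fun t ξ x h => I.F.hol_φ t ξ x h
    hol_rot := fun a ξ x h => I.F.hol_rot a ξ x h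
    hol_smul := fun g ξ x h => I.F.hol_smul g ξ x h
    hol_cont := I.F.hol_cont
    hol_asym := fun K hK hd => I.F.hol_asym K hK hd hc.χ_pos hc.χ_le }

/-- the boundary, as a space with an action of the group -/
def Bnd (_G : Geo Γ X Y) (o : Y) : Type := Bd o

instance : TopologicalSpace (G.Bnd o) := inferInstanceAs (TopologicalSpace (Bd o))

instance : CompactSpace (G.Bnd o) := inferInstanceAs (CompactSpace (Bd o))

instance : T2Space (G.Bnd o) := inferInstanceAs (T2Space (Bd o))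

instance : MulAction Γ (G.Bnd o) := bdAction G.had o

instance : ContinuousConstSMul Γ (G.Bnd o) := bdAction_continuous G.had o

theorem smul_bnd (g : Γ) (ξ : G.Bnd o) : g • ξ = H709.act G.had o g ξ := rfl

/-- **`Leaf` at the base point `o`** -/
def Cst.leaf : Leaf Γ X (G.Bnd o) :=
  LeafA.toLeaf (B := G.Bnd o) (hc.leafA o) (G.dense_orbit o) G.exists_axis G.exists_ne_one

theorem Cst.leaf_em : (hc.leaf o).em = G.em o := rfl

theorem Cst.leaf_ep : (hc.leaf o).ep = G.ep o := rfl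

theorem Cst.leaf_lv : (hc.leaf o).lv = G.lv o := rfl

theorem Cst.leaf_e : (hc.leaf o).e = G.e o r₀ := rfl

theorem Cst.leaf_φ : (hc.leaf o).φ = G.φ := rfl

theorem Cst.leaf_rot : (hc.leaf o).rot = G.rot := rfl

theorem Cst.leaf_flip : (hc.leaf o).flip = G.flip := rfl

end Leaf

end Geo

end Vale.Agent.P207.N4.H76
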